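import Vale.Agent.P181.H303.Spec

set_option autoImplicit false

namespace Vale.Agent.P181.H911

open Vale.Agent.P181.H303 Finset

theorem rowCF : RowCF := by
  intro a b n F μ hF h c hc hB
  classical
  have key : ∀ S : Finset (Fin a), ∀ u : Fin a → EE n, (∀ i, ‖u i‖ = 1) →
      ‖F (fun r => if r ∈ S then h r else lin (u r) ^ b)‖ ≤ (∏ r ∈ S, c r) * μ := by
    intro S
    induction S using Finset.induction_on with
    | empty => intro u hu; simpa using hF u hu
    | insert r0 S hr ih =>
      intro u hu
      have e1 : (fun r => if r ∈ insert r0 S then h r else lin (u r) ^ b) =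
          Function.update (fun r => if r ∈ S then h r else lin (u r) ^ b) r0 (h r0) := by
        funext r
        by_cases hr' : r = r0
        · subst hr'; simp
        · simp [Finset.mem_insert, hr']
      rw [e1, ← MultilinearMap.toLinearMap_apply, Finset.prod_insert hr, mul_assoc]
      apply hB r0
      intro v hv
      rw [MultilinearMap.toLinearMap_apply]
      have h2 := ih (Function.update u r0 v) (by
        intro i
        by_cases hi : i = r0
        · subst hi; simpa using hv
        · rw [Function.update_of_ne hi]; exact hu i)
      have e2 : Function.update (fun r => if r ∈ S then h r else lin (u r) ^ b) r0 (lin v ^ b) =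
          fun r => if r ∈ S then h r else lin (Function.update u r0 v r) ^ b := by
        funext r
        by_cases hr' : r = r0
        · subst hr'; simp [hr]
        · simp [Function.update_of_ne hr']
      rw [e2]
      exact h2
  by_cases hu : ∃ e : EE n, ‖e‖ = 1
  · obtain ⟨e, he⟩ := hu
    simpa using key univ (fun _ => e) (fun _ => he)
  · rcases Nat.eq_zero_or_pos a with h0 | h0
    · subst h0
      have h1 := key univ (fun i => i.elim0) (fun i => i.elim0)
      have h2 : (fun r : Fin 0 => if r ∈ (univ : Finset (Fin 0)) then h r else
          lin ((fun i : Fin 0 => (i.elim0 : EE n)) r) ^ b) = h := by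
        funext r; exact r.elim0
      rw [h2] at h1
      exact h1
    · let r0 : Fin a := ⟨0, h0⟩
      have e3 : F h = F.toLinearMap h r0 (h r0) := by
        rw [MultilinearMap.toLinearMap_apply, Function.update_eq_self]
      have e4 : (∏ r, c r) * μ = c r0 * ((∏ r ∈ univ.erase r0, c r) * μ) := by
        rw [← Finset.mul_prod_erase univ c (mem_univ r0), mul_assoc]
      rw [e3, e4]
      apply hB r0
      intro v hv
      exact absurd ⟨v, hv⟩ hu

end Vale.Agent.P181.H911
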