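import Vale.Agent.P181.H303.Spec

set_option autoImplicit false

namespace Vale.Agent.P181.H911

open Vale.Agent.P181.H303 Finset

section metric

variable {E : Type*} [NormedAddCommGroup E] [InnerProductSpace ℂ E]

theorem dist_line {x z : E} (hx : ‖x‖ = 1) (hz : ‖z‖ = 1) (c : ℂ) :
    1 - ‖inner ℂ x z‖ ^ 2 ≤ ‖x - c • z‖ ^ 2 := by
  have h1 := norm_sub_sq (𝕜 := ℂ) x (c • z)
  have h2 : RCLike.re (inner ℂ x (c • z)) ≤ ‖c‖ * ‖inner ℂ x z‖ := by
    rw [inner_smul_right, ← norm_mul]
    exact RCLike.re_le_norm _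
  have h3 : ‖c • z‖ = ‖c‖ := by rw [norm_smul, hz, mul_one]
  rw [h1, h3, hx]
  nlinarith [sq_nonneg (‖c‖ - ‖inner ℂ x z‖)]

theorem norm_proj {x y : E} (hx : ‖x‖ = 1) (hy : ‖y‖ = 1) :
    ‖x - (inner ℂ y x) • y‖ ^ 2 = 1 - ‖inner ℂ x y‖ ^ 2 := by
  have h1 := norm_sub_sq (𝕜 := ℂ) x ((inner ℂ y x) • y)
  have h2 : RCLike.re (inner ℂ x ((inner ℂ y x) • y)) = ‖inner ℂ x y‖ ^ 2 := by
    rw [inner_smul_right, inner_mul_symm_re_eq_norm, norm_mul, norm_inner_symm y x]
    ring
  have h3 : ‖(inner ℂ y x) • y‖ = ‖inner ℂ x y‖ := by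
    rw [norm_smul, hy, mul_one, norm_inner_symm]
  rw [h1, h2, h3, hx]
  ring

theorem tri {x y z : E} (hx : ‖x‖ = 1) (hy : ‖y‖ = 1) (hz : ‖z‖ = 1) {α β : ℝ} (hα : 0 ≤ α)
    (hβ : 0 ≤ β) (h1 : 1 - ‖inner ℂ x y‖ ^ 2 ≤ α ^ 2) (h2 : 1 - ‖inner ℂ y z‖ ^ 2 ≤ β ^ 2) :
    1 - ‖inner ℂ x z‖ ^ 2 ≤ (α + β) ^ 2 := by
  have hr : ‖x - (inner ℂ y x) • y‖ ≤ α := by
    apply le_of_sq_le_sq _ hα
    rw [norm_proj hx hy]; exact h1
  have hs : ‖y - (inner ℂ z y) • z‖ ≤ β := by
    apply le_of_sq_le_sq _ hβ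
    rw [norm_proj hy hz]; exact h2
  have hle : ‖inner ℂ y x‖ ≤ 1 := by
    have := norm_inner_le_norm (𝕜 := ℂ) y x
    rw [hx, hy] at this
    simpa using this
  have e : x - (inner ℂ y x * inner ℂ z y) • z =
      (x - (inner ℂ y x) • y) + (inner ℂ y x) • (y - (inner ℂ z y) • z) := by
    rw [smul_sub, smul_smul]
    abel
  have h3 : ‖x - (inner ℂ y x * inner ℂ z y) • z‖ ≤ α + β := by
    rw [e]
    refine (norm_add_le _ _).trans ?_
    rw [norm_smul]
    have : ‖inner ℂ y x‖ * ‖y - (inner ℂ z y) • z‖ ≤ 1 * β :=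
      mul_le_mul hle hs (norm_nonneg _) zero_le_one
    linarith
  refine (dist_line hx hz (inner ℂ y x * inner ℂ z y)).trans ?_
  exact pow_le_pow_left₀ (norm_nonneg _) h3 2

end metric

section graph

variable {a : ℕ} (rel : Fin a → Fin a → Prop)

open Classical in
/-- Balls in the graph. -/
noncomputable def bl (p : Fin a) : ℕ → Finset (Fin a)
  | 0 => {p}
  | k + 1 => bl p k ∪ univ.filter (fun j => ∃ i ∈ bl p k, rel i j)

theorem bl_mono (p : Fin a) (k : ℕ) : bl rel p k ⊆ bl rel p (k + 1) := by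
  rw [bl]; exact Finset.subset_union_left

theorem bl_mono' (p : Fin a) {k l : ℕ} (h : k ≤ l) : bl rel p k ⊆ bl rel p l := by
  induction h with
  | refl => exact Finset.Subset.refl _
  | step _ ih => exact ih.trans (bl_mono rel p _)

theorem self_mem_bl (p : Fin a) (k : ℕ) : p ∈ bl rel p k :=
  bl_mono' rel p (Nat.zero_le k) (by simp [bl])

theorem closed_of_eq (p : Fin a) (k : ℕ) (h : bl rel p (k + 1) = bl rel p k) {j : Fin a}
    (hj : Relation.ReflTransGen rel p j) : j ∈ bl rel p k := by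
  classical
  induction hj with
  | refl => exact self_mem_bl rel p k
  | tail _ hbc ih =>
    rw [← h, bl, mem_union, mem_filter]
    exact Or.inr ⟨mem_univ _, _, ih, hbc⟩

theorem card_or (p : Fin a) (k : ℕ) : (∃ l < k, bl rel p (l + 1) = bl rel p l) ∨
    k + 1 ≤ (bl rel p k).card := by
  induction k with
  | zero => right; simp [bl]
  | succ k ih =>
    rcases ih with ⟨l, hl, h⟩ | ih
    · exact Or.inl ⟨l, by omega, h⟩
    · by_cases h : bl rel p (k + 1) = bl rel p k
      · exact Or.inl ⟨k, by omega, h⟩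
      · right
        have : (bl rel p k).card < (bl rel p (k + 1)).card :=
          Finset.card_lt_card ((bl_mono rel p k).ssubset_of_ne (Ne.symm h))
        omega

end graph

theorem rowCL : RowCL := by
  intro a n K x hK hx hE
  classical
  have hK' : (1 : ℝ) ≤ K := by exact_mod_cast hK
  have hK0 : (0 : ℝ) < K := by linarith
  set δ : ℝ := 1 / (16 * (K : ℝ) ^ 2) with hδ
  set η : ℝ := 1 / (4 * (K : ℝ)) with hη
  have hη0 : 0 ≤ η := by positivity
  have hδη : δ = η ^ 2 := by rw [hδ, hη]; field_simp; norm_num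
  let rel : Fin a → Fin a → Prop := fun i j => 1 - δ < ‖inner ℂ (x i) (x j)‖ ^ 2
  have hsymm : ∀ i j, rel i j → rel j i := by
    intro i j h
    show 1 - δ < ‖inner ℂ (x j) (x i)‖ ^ 2
    rw [norm_inner_symm]; exact h
  -- distances in balls
  have hball : ∀ (p : Fin a) (k : ℕ), ∀ j ∈ bl rel p k,
      1 - ‖inner ℂ (x p) (x j)‖ ^ 2 ≤ ((k : ℝ) * η) ^ 2 := by
    intro p k
    induction k with
    | zero =>
      intro j hj
      have : j = p := by simpa [bl] using hj
      subst this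
      have : ‖inner ℂ (x j) (x j)‖ = 1 := by
        rw [inner_self_eq_norm_sq_to_K, hx j]; simp
      rw [this]; simp
    | succ k ih =>
      intro j hj
      rw [bl, mem_union, mem_filter] at hj
      rcases hj with hj | ⟨_, i, hi, hij⟩
      · refine (ih j hj).trans ?_
        apply pow_le_pow_left₀ (by positivity)
        push_cast
        nlinarith
      · have h1 := ih i hi
        have h2 : 1 - ‖inner ℂ (x i) (x j)‖ ^ 2 ≤ η ^ 2 := by
          rw [← hδη]
          have : 1 - δ < ‖inner ℂ (x i) (x j)‖ ^ 2 := hij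
          linarith
        have h3 := tri (hx p) (hx i) (hx j) (by positivity) hη0 h1 h2
        have : (k : ℝ) * η + η = ((k + 1 : ℕ) : ℝ) * η := by push_cast; ring
        rw [this] at h3
        exact h3
  have hcard : ∀ p : Fin a, (bl rel p (2 * K)).card ≤ 2 * K := by
    intro p
    have h1 : ∀ j ∈ bl rel p (2 * K), (3 / 4 : ℝ) ≤ ‖inner ℂ (x p) (x j)‖ ^ 2 := by
      intro j hj
      have h := hball p (2 * K) j hj
      have h2 : ((2 * K : ℕ) : ℝ) * η = 1 / 2 := by
        rw [hη]; push_cast; field_simp; norm_num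
      rw [h2] at h
      linarith
    have h2 : ((bl rel p (2 * K)).card : ℝ) * (3 / 4) ≤ K := by
      calc ((bl rel p (2 * K)).card : ℝ) * (3 / 4)
          = ∑ j ∈ bl rel p (2 * K), (3 / 4 : ℝ) := by rw [Finset.sum_const, nsmul_eq_mul]
        _ ≤ ∑ j ∈ bl rel p (2 * K), ‖inner ℂ (x p) (x j)‖ ^ 2 := Finset.sum_le_sum h1
        _ ≤ ∑ j, ‖inner ℂ (x p) (x j)‖ ^ 2 :=
            Finset.sum_le_univ_sum_of_nonneg (fun j => by positivity)
        _ ≤ K := hE (x p) (hx p)
    have h3 : ((bl rel p (2 * K)).card : ℝ) ≤ ((2 * K : ℕ) : ℝ) := by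
      push_cast
      linarith
    exact_mod_cast h3
  have hcomp : ∀ p j : Fin a, Relation.ReflTransGen rel p j → j ∈ bl rel p (2 * K) := by
    intro p j hj
    rcases card_or rel p (2 * K) with ⟨l, hl, h⟩ | h
    · exact bl_mono' rel p hl.le (closed_of_eq rel p l h hj)
    · have := hcard p
      omega
  have hrs : ∀ i j, Relation.ReflTransGen rel i j → Relation.ReflTransGen rel j i := by
    intro i j h
    induction h with
    | refl => exact Relation.ReflTransGen.refl
    | tail _ hbc ih => exact Relation.ReflTransGen.head (hsymm _ _ hbc) ih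
  let s : Setoid (Fin a) :=
    ⟨Relation.ReflTransGen rel, ⟨fun _ => Relation.ReflTransGen.refl, fun h => hrs _ _ h,
      fun h h' => h.trans h'⟩⟩
  let cl : Fin a → Fin a := fun i => Quotient.out (Quotient.mk s i)
  have hcl : ∀ i j, cl i = cl j → Relation.ReflTransGen rel i j := by
    intro i j h
    have h1 : Quotient.mk s (cl i) = Quotient.mk s i := Quotient.out_eq _
    have h2 : Quotient.mk s (cl j) = Quotient.mk s j := Quotient.out_eq _
    have h3 : Quotient.mk s i = Quotient.mk s j := by rw [← h1, ← h2, h]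
    exact Quotient.exact h3
  refine ⟨cl, ?_, ?_⟩
  · intro c
    rcases (univ.filter (fun i => cl i = c)).eq_empty_or_nonempty with h | ⟨p, hp⟩
    · rw [h]; simp
    · have hpc : cl p = c := (mem_filter.1 hp).2
      refine le_trans (Finset.card_le_card ?_) (hcard p)
      intro i hi
      have hic : cl i = c := (mem_filter.1 hi).2
      exact hcomp p i (hcl p i (by rw [hpc, hic]))
  · intro i j hij
    by_contra hcon
    apply hij
    have h1 : rel i j := not_le.1 hcon
    show Quotient.out (Quotient.mk s i) = Quotient.out (Quotient.mk s j)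
    have h2 : Quotient.mk s i = Quotient.mk s j := Quotient.sound (Relation.ReflTransGen.single h1)
    rw [h2]

end Vale.Agent.P181.H911
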